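import Mathlib

/-! Brouwer fixed point theorem, part A: projection on convex sets, polynomial
interpolation of determinants, and the basic integral identity
(analytic proof after Milnor and Rogers). -/

open MeasureTheory Metric Set Filter Topology Polynomial

namespace BrouwerFP

/-- Projection on a nonempty complete convex set, with the obtuse angle property. -/
theorem exists_proj {F : Type*} [NormedAddCommGroup F] [InnerProductSpace ℝ F]
    {K : Set F} (ne : K.Nonempty) (hc : IsComplete K) (hK : Convex ℝ K) :
    ∃ p : F → F, (∀ x, p x ∈ K) ∧ (∀ x, ∀ w ∈ K, inner ℝ (x - p x) (w - p x) ≤ 0) ∧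
      (∀ x ∈ K, p x = x) ∧ (∀ x y, ‖p x - p y‖ ≤ ‖x - y‖) := by
  have h1 := fun x => exists_norm_eq_iInf_of_complete_convex ne hc hK x
  choose p hp1 hp2 using h1
  have h3 : ∀ x, ∀ w ∈ K, inner ℝ (x - p x) (w - p x) ≤ 0 := fun x =>
    (norm_eq_iInf_iff_real_inner_le_zero hK (hp1 x)).1 (hp2 x)
  refine ⟨p, hp1, h3, ?_, ?_⟩
  · intro x hx
    have h := h3 x x hx
    rw [real_inner_self_eq_norm_sq] at h
    have h0 : ‖x - p x‖ = 0 := by
      have := norm_nonneg (x - p x)
      nlinarith [sq_nonneg ‖x - p x‖]
    exact (sub_eq_zero.1 (norm_eq_zero.1 h0)).symm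
  · intro x y
    have h1 := h3 x (p y) (hp1 y)
    have h2 := h3 y (p x) (hp1 x)
    have h4 : ‖p x - p y‖ ^ 2 ≤ inner ℝ (x - y) (p x - p y) := by
      have e1 : inner ℝ (x - y) (p x - p y) - ‖p x - p y‖ ^ 2
          = - inner ℝ (x - p x) (p y - p x) - inner ℝ (y - p y) (p x - p y) := by
        rw [← real_inner_self_eq_norm_sq]
        have : p y - p x = -(p x - p y) := by abel
        rw [this, inner_neg_right]
        rw [← inner_sub_left]
        have e2 : x - y - (p x - p y) = (x - p x) - (y - p y) := by abel
        rw [e2, inner_sub_left]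
        ring
      linarith
    have h5 := real_inner_le_norm (x - y) (p x - p y)
    have h6 : ‖p x - p y‖ * ‖p x - p y‖ ≤ ‖x - y‖ * ‖p x - p y‖ := by nlinarith
    rcases (norm_nonneg (p x - p y)).eq_or_lt with h7 | h7
    · rw [← h7]; exact norm_nonneg _
    · exact le_of_mul_le_mul_right h6 h7

/-- Interpolation of the determinant of `1 + t A` at `t = 1` by small values of `t`. -/
theorem det_interp (n : ℕ) (v : ℕ → ℝ) (hv : Function.Injective v) :
    ∃ l : ℕ → ℝ, (∑ i ∈ Finset.range (n + 1), l i = 1) ∧
      ∀ A : Matrix (Fin n) (Fin n) ℝ,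
        (1 + A).det = ∑ i ∈ Finset.range (n + 1), l i * (1 + v i • A).det := by
  classical
  refine ⟨fun i => ((Lagrange.basis (Finset.range (n + 1)) v i).eval 1), ?_, ?_⟩
  · have h := Lagrange.sum_basis (s := Finset.range (n + 1)) (v := v) hv.injOn
      ⟨0, by simp⟩
    have h2 := congrArg (Polynomial.eval 1) h
    rw [Polynomial.eval_finsetSum] at h2
    simpa using h2
  · intro A
    set P : ℝ[X] := Matrix.det ((X : ℝ[X]) • A.map C + (1 : Matrix (Fin n) (Fin n) ℝ).map C)
      with hP
    have hdeg : P.degree < (Finset.range (n + 1)).card := by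
      have h1 : P.natDegree ≤ n := by
        have := natDegree_det_X_add_C_le A (1 : Matrix (Fin n) (Fin n) ℝ)
        rw [Fintype.card_fin] at this
        exact this
      rw [Finset.card_range]
      have h2 := Polynomial.degree_le_natDegree (p := P)
      refine lt_of_le_of_lt h2 ?_
      exact_mod_cast Nat.lt_succ_of_le h1
    have hev : ∀ t : ℝ, P.eval t = (1 + t • A).det := by
      intro t
      rw [hP, ← Polynomial.coe_evalRingHom, RingHom.map_det]
      congr 1
      ext i j
      simp [Matrix.one_apply, add_comm]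
      split_ifs <;> simp [mul_comm]
    have h := Lagrange.eq_interpolate (s := Finset.range (n + 1)) (v := v) (f := P) hv.injOn hdeg
    have h2 := congrArg (Polynomial.eval 1) h
    rw [hev 1, one_smul, Lagrange.interpolate_apply, Polynomial.eval_finsetSum] at h2
    rw [h2]
    refine Finset.sum_congr rfl fun i _ => ?_
    rw [Polynomial.eval_mul, Polynomial.eval_C, hev]
    ring

end BrouwerFP
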