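import Vale.Agent.BrouwerFP.A

/-! Brouwer fixed point theorem, part B: no retraction. -/

open MeasureTheory Metric Set Filter Topology

namespace BrouwerFP

variable {n : ℕ}

/-- det of `1 + t A` for continuous linear maps: interpolation. -/
theorem clm_det_interp (v : ℕ → ℝ) (hv : Function.Injective v) :
    ∃ l : ℕ → ℝ, (∑ i ∈ Finset.range (n + 1), l i = 1) ∧
      ∀ A : EuclideanSpace ℝ (Fin n) →L[ℝ] EuclideanSpace ℝ (Fin n),
        (ContinuousLinearMap.id ℝ _ + A).det
          = ∑ i ∈ Finset.range (n + 1), l i * (ContinuousLinearMap.id ℝ _ + v i • A).det := by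
  obtain ⟨l, hl, h⟩ := det_interp n v hv
  refine ⟨l, hl, fun A => ?_⟩
  set b := (EuclideanSpace.basisFun (Fin n) ℝ).toBasis
  have key : ∀ t : ℝ, (ContinuousLinearMap.id ℝ (EuclideanSpace ℝ (Fin n)) + t • A).det
      = (1 + t • (LinearMap.toMatrix b b (A : _ →ₗ[ℝ] _))).det := by
    intro t
    rw [ContinuousLinearMap.det, ← LinearMap.det_toMatrix b]
    congr 1
    rw [show ((ContinuousLinearMap.id ℝ (EuclideanSpace ℝ (Fin n)) + t • A :
      EuclideanSpace ℝ (Fin n) →L[ℝ] EuclideanSpace ℝ (Fin n)) :
      EuclideanSpace ℝ (Fin n) →ₗ[ℝ] EuclideanSpace ℝ (Fin n))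
      = LinearMap.id + t • (A : EuclideanSpace ℝ (Fin n) →ₗ[ℝ] EuclideanSpace ℝ (Fin n)) from rfl,
      map_add, map_smul, LinearMap.toMatrix_id]
  have h1 := key 1
  rw [one_smul, one_smul] at h1
  rw [h1, h]
  exact Finset.sum_congr rfl fun i _ => by rw [key]

/-- The key identity: if `h` vanishes on the unit sphere, the integral of `det (1 + Dh)` over
the unit ball is the volume of the ball. -/
theorem integral_det_eq (h : EuclideanSpace ℝ (Fin n) → EuclideanSpace ℝ (Fin n))
    (U : Set (EuclideanSpace ℝ (Fin n))) (hU : IsOpen U)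
    (hBU : closedBall (0 : EuclideanSpace ℝ (Fin n)) 1 ⊆ U)
    (hh : ContDiffOn ℝ 1 h U) (h0 : ∀ x, ‖x‖ = 1 → h x = 0) :
    ∫ x in closedBall (0 : EuclideanSpace ℝ (Fin n)) 1,
      (ContinuousLinearMap.id ℝ _ + fderiv ℝ h x).det
      = ∫ x in closedBall (0 : EuclideanSpace ℝ (Fin n)) 1, (1 : ℝ) := by
  set B := closedBall (0 : EuclideanSpace ℝ (Fin n)) 1 with hB
  have hBc : IsCompact B := isCompact_closedBall _ _
  have hBconv : Convex ℝ B := convex_closedBall _ _
  have hD : ContinuousOn (fderiv ℝ h) B :=
    (hh.continuousOn_fderiv_of_isOpen hU le_rfl).mono hBU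
  have hdiff : ∀ x ∈ B, HasFDerivAt h (fderiv ℝ h x) x := fun x hx =>
    ((hh.contDiffAt (hU.mem_nhds (hBU hx))).differentiableAt (by norm_num)).hasFDerivAt
  obtain ⟨L, hL⟩ := hBc.exists_bound_of_continuousOn hD
  have hL0 : 0 ≤ L := le_trans (norm_nonneg _) (hL 0 (by simp [hB]))
  obtain ⟨p, hp1, hp2, hp3, hp4⟩ := exists_proj (K := B) ⟨0, by simp [hB]⟩ hBc.isComplete hBconv
  -- outside the ball the projection is on the sphere
  have hp5 : ∀ x, x ∉ B → ‖p x‖ = 1 := by
    intro x hx
    by_contra hne
    have hle : ‖p x‖ ≤ 1 := by simpa [hB] using hp1 x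
    have hlt : ‖p x‖ < 1 := lt_of_le_of_ne hle hne
    set d := ‖x - p x‖ with hd
    have hd0 : 0 < d := by
      rw [hd, norm_pos_iff, sub_ne_zero]
      intro he; exact hx (he ▸ hp1 x)
    set e := (1 - ‖p x‖) / d with he
    have he0 : 0 < e := div_pos (by linarith) hd0
    have hw : p x + e • (x - p x) ∈ B := by
      rw [hB, mem_closedBall_zero_iff]
      refine (norm_add_le _ _).trans ?_
      rw [norm_smul, Real.norm_of_nonneg he0.le, ← hd, he, div_mul_cancel₀ _ hd0.ne']
      linarith
    have := hp2 x _ hw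
    rw [add_sub_cancel_left, inner_smul_right, real_inner_self_eq_norm_sq, ← hd] at this
    have : 0 < e * d ^ 2 := by positivity
    linarith
  set k : EuclideanSpace ℝ (Fin n) → EuclideanSpace ℝ (Fin n) := fun x => h (p x) with hk
  have hkL : ∀ x y, ‖k x - k y‖ ≤ L * ‖x - y‖ := by
    intro x y
    have h1 := hBconv.norm_image_sub_le_of_norm_hasFDerivWithin_le (𝕜 := ℝ) (f := h)
      (f' := fderiv ℝ h) (C := L)
      (fun z hz => (hdiff z hz).hasFDerivWithinAt) hL (hp1 y) (hp1 x)
    exact h1.trans (mul_le_mul_of_nonneg_left (hp4 x y) hL0)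
  have hkout : ∀ x, x ∉ B → k x = 0 := fun x hx => h0 _ (hp5 x hx)
  have hkin : ∀ x ∈ B, k x = h x := fun x hx => by simp only [hk]; rw [hp3 x hx]
  -- bijectivity for small t
  have hbij : ∀ t : ℝ, 0 ≤ t → t * L < 1 →
      InjOn (fun x => x + t • h x) B ∧ (fun x => x + t • h x) '' B = B := by
    intro t ht htL
    have hinj : ∀ x y, x + t • k x = y + t • k y → x = y := by
      intro x y hxy
      by_contra hne
      have hpos : 0 < ‖x - y‖ := norm_pos_iff.2 (sub_ne_zero.2 hne)
      have e1 : x - y = -(t • (k x - k y)) := by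
        rw [smul_sub]
        have : x - y = (x + t • k x) - (y + t • k y) - (t • k x - t • k y) := by abel
        rw [this, hxy]; abel
      have e2 : ‖x - y‖ ≤ t * (L * ‖x - y‖) := by
        calc ‖x - y‖ = ‖t • (k x - k y)‖ := by
              conv_lhs => rw [e1]
              rw [norm_neg]
          _ = t * ‖k x - k y‖ := by rw [norm_smul, Real.norm_of_nonneg ht]
          _ ≤ t * (L * ‖x - y‖) := mul_le_mul_of_nonneg_left (hkL x y) ht
      nlinarith
    have hout : ∀ x, x ∉ B → x + t • k x = x := fun x hx => by simp [hkout x hx]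
    refine ⟨?_, ?_⟩
    · intro x hx y hy hxy
      simp only at hxy
      rw [← hkin x hx, ← hkin y hy] at hxy
      exact hinj x y hxy
    · apply Subset.antisymm
      · rintro _ ⟨x, hx, rfl⟩
        simp only
        by_contra hy
        rw [← hkin x hx] at hy
        have := hout _ hy
        have h2 := hinj _ _ this
        rw [h2] at hy
        exact hy hx
      · intro y hy
        have hcon : ContractingWith (Real.toNNReal (t * L))
            (fun x : EuclideanSpace ℝ (Fin n) => y - t • k x) := by
          refine ⟨?_, LipschitzWith.of_dist_le_mul fun a b => ?_⟩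
          · rw [← NNReal.coe_lt_coe, Real.coe_toNNReal _ (by positivity)]
            simpa using htL
          · rw [dist_eq_norm, dist_eq_norm, Real.coe_toNNReal _ (by positivity)]
            have : y - t • k a - (y - t • k b) = -(t • (k a - k b)) := by
              rw [smul_sub]; abel
            rw [this, norm_neg, norm_smul, Real.norm_of_nonneg ht, mul_assoc]
            exact mul_le_mul_of_nonneg_left (hkL a b) ht
        set x := ContractingWith.fixedPoint _ hcon with hx
        have hfix : y - t • k x = x := hcon.fixedPoint_isFixedPt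
        have hxy : x + t • k x = y := (sub_eq_iff_eq_add.1 hfix).symm
        have hxB : x ∈ B := by
          by_contra hxB
          rw [hout x hxB] at hxy
          exact hxB (hxy ▸ hy)
        exact ⟨x, hxB, by simp only; rw [← hkin x hxB]; exact hxy⟩
  -- positivity of the determinant
  obtain ⟨δ, hδ, hdet⟩ : ∃ δ > 0, ∀ M : EuclideanSpace ℝ (Fin n) →L[ℝ] EuclideanSpace ℝ (Fin n),
      ‖M - ContinuousLinearMap.id ℝ _‖ < δ → 0 < M.det := by
    have hc : Continuous fun f : EuclideanSpace ℝ (Fin n) →L[ℝ] EuclideanSpace ℝ (Fin n) =>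
        f.det := ContinuousLinearMap.continuous_det
    have h1 : (0 : ℝ) < (ContinuousLinearMap.id ℝ (EuclideanSpace ℝ (Fin n))).det := by
      rw [ContinuousLinearMap.det]; simp
    have h2 := (hc.tendsto (ContinuousLinearMap.id ℝ _)).eventually (lt_mem_nhds h1)
    obtain ⟨δ, hδ, h3⟩ := Metric.eventually_nhds_iff.1 h2
    exact ⟨δ, hδ, fun M hM => h3 (by rwa [dist_eq_norm])⟩
  -- small parameters
  set ε := min (δ / (L + 1)) (1 / (L + 1)) with hε
  have hε0 : 0 < ε := lt_min (by positivity) (by positivity)
  have hsmall : ∀ t : ℝ, 0 ≤ t → t < ε →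
      ∫ x in B, (ContinuousLinearMap.id ℝ _ + t • fderiv ℝ h x).det = ∫ x in B, (1 : ℝ) := by
    intro t ht htε
    have ht1 : t * (L + 1) < 1 := by
      have := lt_of_lt_of_le htε (min_le_right _ _)
      rwa [lt_div_iff₀ (by positivity)] at this
    have ht2 : t * (L + 1) < δ := by
      have := lt_of_lt_of_le htε (min_le_left _ _)
      rwa [lt_div_iff₀ (by positivity)] at this
    obtain ⟨hi, him⟩ := hbij t ht (by nlinarith)
    have hcv := integral_image_eq_integral_abs_det_fderiv_smul (μ := volume)
      (s := B) (f := fun x => x + t • h x)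
      (f' := fun x => ContinuousLinearMap.id ℝ _ + t • fderiv ℝ h x)
      measurableSet_closedBall
      (fun x hx => ((hasFDerivAt_id x).add ((hdiff x hx).const_smul t)).hasFDerivWithinAt) hi
      (fun _ => (1 : ℝ))
    rw [him] at hcv
    rw [hcv]
    refine setIntegral_congr_fun measurableSet_closedBall fun x hx => ?_
    simp only [smul_eq_mul, mul_one]
    rw [abs_of_pos]
    apply hdet
    rw [add_sub_cancel_left, norm_smul, Real.norm_of_nonneg ht]
    have := hL x hx
    nlinarith [norm_nonneg (fderiv ℝ h x)]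
  -- interpolation
  set v : ℕ → ℝ := fun i => ε / (i + 2) with hv
  have hvinj : Function.Injective v := by
    intro i j hij
    simp only [hv] at hij
    rw [div_eq_div_iff (by positivity) (by positivity)] at hij
    have := mul_left_cancel₀ hε0.ne' hij
    have h3 : (i : ℝ) = j := by linarith
    exact_mod_cast h3
  obtain ⟨l, hl, hlA⟩ := clm_det_interp (n := n) v hvinj
  have hint : ∀ t : ℝ, IntegrableOn (fun x =>
      (ContinuousLinearMap.id ℝ (EuclideanSpace ℝ (Fin n)) + t • fderiv ℝ h x).det) B := by
    intro t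
    apply ContinuousOn.integrableOn_compact hBc
    exact ContinuousLinearMap.continuous_det.comp_continuousOn
      (continuousOn_const.add (hD.const_smul t))
  calc ∫ x in B, (ContinuousLinearMap.id ℝ _ + fderiv ℝ h x).det
      = ∫ x in B, ∑ i ∈ Finset.range (n + 1),
          l i * (ContinuousLinearMap.id ℝ _ + v i • fderiv ℝ h x).det := by
        refine setIntegral_congr_fun measurableSet_closedBall fun x _ => ?_
        exact hlA _
    _ = ∑ i ∈ Finset.range (n + 1),
          l i * ∫ x in B, (ContinuousLinearMap.id ℝ _ + v i • fderiv ℝ h x).det := by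
        rw [integral_finsetSum]
        · refine Finset.sum_congr rfl fun i _ => ?_
          rw [integral_const_mul]
        · intro i _
          exact (hint (v i)).const_mul (l i)
    _ = ∑ i ∈ Finset.range (n + 1), l i * ∫ x in B, (1 : ℝ) := by
        refine Finset.sum_congr rfl fun i _ => ?_
        rw [hsmall (v i) (by simp only [hv]; positivity)]
        simp only [hv]
        rw [div_lt_iff₀ (by positivity)]
        have : (0 : ℝ) ≤ i := Nat.cast_nonneg i
        nlinarith
    _ = ∫ x in B, (1 : ℝ) := by rw [← Finset.sum_mul, hl, one_mul]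

end BrouwerFP
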