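import Vale.Agent.BrouwerFP.B

/-! Brouwer fixed point theorem, part C. -/

open MeasureTheory Metric Set Filter Topology
open scoped ContDiff Manifold

namespace BrouwerFP

variable {n : ℕ}

/-- There is no continuously differentiable retraction of (a neighbourhood of) the closed unit
ball onto the sphere. -/
theorem no_retraction (r : EuclideanSpace ℝ (Fin n) → EuclideanSpace ℝ (Fin n))
    (U : Set (EuclideanSpace ℝ (Fin n))) (hU : IsOpen U)
    (hBU : closedBall (0 : EuclideanSpace ℝ (Fin n)) 1 ⊆ U)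
    (hr : ContDiffOn ℝ 1 r U) (h1 : ∀ x ∈ U, ‖r x‖ = 1) (h0 : ∀ x, ‖x‖ = 1 → r x = x) :
    False := by
  have hid : ContDiffOn ℝ 1 (fun x : EuclideanSpace ℝ (Fin n) => x) U := contDiff_id.contDiffOn
  have hh : ContDiffOn ℝ 1 (fun x => r x - x) U := hr.sub hid
  have key := integral_det_eq (fun x => r x - x) U hU hBU hh
    (fun x hx => by simp [h0 x hx])
  have hdet : ∀ x ∈ closedBall (0 : EuclideanSpace ℝ (Fin n)) 1,
      (ContinuousLinearMap.id ℝ _ + fderiv ℝ (fun x => r x - x) x).det = 0 := by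
    intro x hx
    have hxU := hBU hx
    have hrd : HasFDerivAt r (fderiv ℝ r x) x :=
      ((hr.contDiffAt (hU.mem_nhds hxU)).differentiableAt (by norm_num)).hasFDerivAt
    have e1 : fderiv ℝ (fun x => r x - x) x = fderiv ℝ r x - ContinuousLinearMap.id ℝ _ :=
      (hrd.sub (hasFDerivAt_id x)).fderiv
    rw [e1, add_sub_cancel]
    by_contra hne
    -- derivative of the norm square
    have e2 : HasFDerivAt (fun y => inner ℝ (r y) (r y))
        ((fderivInnerCLM ℝ (r x, r x)).comp ((fderiv ℝ r x).prod (fderiv ℝ r x))) x :=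
      hrd.inner ℝ hrd
    have e3 : HasFDerivAt (fun y => inner ℝ (r y) (r y))
        (0 : EuclideanSpace ℝ (Fin n) →L[ℝ] ℝ) x := by
      refine (hasFDerivAt_const (1 : ℝ) x).congr_of_eventuallyEq ?_
      filter_upwards [hU.mem_nhds hxU] with y hy
      rw [real_inner_self_eq_norm_sq, h1 y hy]; norm_num
    have e4 := e2.unique e3
    obtain ⟨v, hv⟩ : ∃ v, fderiv ℝ r x v = r x := by
      refine ⟨((fderiv ℝ r x).toContinuousLinearEquivOfDetNeZero hne).symm (r x), ?_⟩
      have := ((fderiv ℝ r x).toContinuousLinearEquivOfDetNeZero hne).apply_symm_apply (r x)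
      rwa [ContinuousLinearMap.toContinuousLinearEquivOfDetNeZero_apply] at this
    have e5 := congrArg (fun f => f v) e4
    simp only [ContinuousLinearMap.comp_apply, ContinuousLinearMap.prod_apply,
      fderivInnerCLM_apply, hv, _root_.zero_apply] at e5
    rw [real_inner_self_eq_norm_sq, h1 x hxU] at e5
    norm_num at e5
  have h2 : ∫ x in closedBall (0 : EuclideanSpace ℝ (Fin n)) 1,
      (ContinuousLinearMap.id ℝ _ + fderiv ℝ (fun x => r x - x) x).det = 0 := by
    rw [setIntegral_congr_fun measurableSet_closedBall (g := fun _ => (0 : ℝ))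
      (fun x hx => hdet x hx)]
    simp
  rw [h2] at key
  have h3 : (0 : ℝ) < ∫ x in closedBall (0 : EuclideanSpace ℝ (Fin n)) 1, (1 : ℝ) := by
    rw [setIntegral_const, smul_eq_mul, mul_one]
    rw [Measure.real, ENNReal.toReal_pos_iff]
    exact ⟨measure_closedBall_pos _ _ one_pos, measure_closedBall_lt_top⟩
  linarith

/-- Brouwer for smooth maps of the closed unit ball. -/
theorem brouwer_smooth (g : EuclideanSpace ℝ (Fin n) → EuclideanSpace ℝ (Fin n))
    (hg : ContDiff ℝ 1 g) (hg1 : ∀ x, ‖x‖ ≤ 1 → ‖g x‖ ≤ 1) : ∃ x, ‖x‖ ≤ 1 ∧ g x = x := by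
  by_contra hcon
  push Not at hcon
  set u : EuclideanSpace ℝ (Fin n) → EuclideanSpace ℝ (Fin n) := fun x => x - g x with hu
  have huc : ContDiff ℝ 1 u := contDiff_id.sub hg
  set q : EuclideanSpace ℝ (Fin n) → ℝ := fun x => inner ℝ (u x) (u x) with hq
  set b : EuclideanSpace ℝ (Fin n) → ℝ := fun x => inner ℝ x (u x) with hb
  set d : EuclideanSpace ℝ (Fin n) → ℝ := fun x => b x ^ 2 + q x * (1 - inner ℝ x x) with hd
  have hqc : ContDiff ℝ 1 q := huc.inner ℝ huc
  have hbc : ContDiff ℝ 1 b := contDiff_id.inner ℝ huc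
  have hdc : ContDiff ℝ 1 d :=
    (hbc.pow 2).add (hqc.mul (contDiff_const.sub (contDiff_id.inner ℝ contDiff_id)))
  set U : Set (EuclideanSpace ℝ (Fin n)) := {x | 0 < q x} ∩ {x | 0 < d x} with hU
  have hUo : IsOpen U := (isOpen_lt continuous_const hqc.continuous).inter
    (isOpen_lt continuous_const hdc.continuous)
  have hu0 : ∀ x, ‖x‖ ≤ 1 → 0 < q x := by
    intro x hx
    simp only [hq]
    rw [real_inner_self_eq_norm_sq]
    have : 0 < ‖u x‖ := norm_pos_iff.2 (sub_ne_zero.2 (hcon x hx).symm)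
    positivity
  have hbpos : ∀ x, ‖x‖ = 1 → 0 < b x := by
    intro x hx
    have h1 := hu0 x hx.le
    simp only [hq] at h1
    rw [real_inner_self_eq_norm_sq] at h1
    simp only [hu] at h1
    rw [norm_sub_sq_real, hx] at h1
    have h2 := hg1 x hx.le
    simp only [hb, hu]
    rw [inner_sub_right, real_inner_self_eq_norm_sq, hx]
    nlinarith [norm_nonneg (g x)]
  have hBU : closedBall (0 : EuclideanSpace ℝ (Fin n)) 1 ⊆ U := by
    intro x hx
    rw [mem_closedBall_zero_iff] at hx
    refine ⟨hu0 x hx, ?_⟩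
    simp only [mem_ofPred_eq, hd]
    rw [real_inner_self_eq_norm_sq]
    rcases hx.lt_or_eq with h | h
    · have h1 := hu0 x hx
      have h2 : 0 < 1 - ‖x‖ ^ 2 := by nlinarith [norm_nonneg x]
      have := mul_pos h1 h2
      nlinarith [sq_nonneg (b x)]
    · have := hbpos x h
      rw [h]
      have h2 : 0 < b x ^ 2 := by positivity
      linarith
  set lam : EuclideanSpace ℝ (Fin n) → ℝ := fun x => (-b x + Real.sqrt (d x)) / q x with hlam
  set r : EuclideanSpace ℝ (Fin n) → EuclideanSpace ℝ (Fin n) := fun x => x + lam x • u x with hr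
  refine no_retraction r U hUo hBU ?_ ?_ ?_
  · intro x hx
    have hx1 : q x ≠ 0 := (show 0 < q x from hx.1).ne'
    have hx2 : d x ≠ 0 := (show 0 < d x from hx.2).ne'
    have hl : ContDiffAt ℝ 1 lam x :=
      (hbc.contDiffAt.neg.add (hdc.contDiffAt.sqrt hx2)).div hqc.contDiffAt hx1
    exact (contDiff_id.contDiffAt.add (hl.smul huc.contDiffAt)).contDiffWithinAt
  · intro x hx
    have hx1 : 0 < q x := hx.1
    have hx2 : 0 < d x := hx.2
    have e1 : inner ℝ (r x) (r x) = inner ℝ x x + 2 * lam x * b x + lam x ^ 2 * q x := by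
      simp only [hr, hb, hq]
      rw [inner_add_left, inner_add_right, inner_add_right, inner_smul_left, inner_smul_right,
        inner_smul_right, inner_smul_left, real_inner_comm x (u x)]
      simp only [conj_trivial]
      ring
    have e2 : lam x * q x = -b x + Real.sqrt (d x) := by
      simp only [hlam]
      rw [div_mul_cancel₀ _ hx1.ne']
    have e3 : Real.sqrt (d x) ^ 2 = d x := Real.sq_sqrt hx2.le
    have e4 : q x * (inner ℝ x x + 2 * lam x * b x + lam x ^ 2 * q x) = q x := by
      have : q x * (inner ℝ x x + 2 * lam x * b x + lam x ^ 2 * q x)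
          = q x * inner ℝ x x + 2 * (lam x * q x) * b x + (lam x * q x) ^ 2 := by ring
      rw [this, e2]
      have : q x * inner ℝ x x + 2 * (-b x + Real.sqrt (d x)) * b x
          + (-b x + Real.sqrt (d x)) ^ 2 = q x * inner ℝ x x - b x ^ 2 + Real.sqrt (d x) ^ 2 := by
        ring
      rw [this, e3]
      simp only [hd]
      ring
    have e5 : inner ℝ (r x) (r x) = 1 := by
      rw [e1]
      exact mul_left_cancel₀ hx1.ne' (by rw [e4, mul_one])
    rw [real_inner_self_eq_norm_sq] at e5
    have := norm_nonneg (r x)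
    nlinarith
  · intro x hx
    have hbp := hbpos x hx
    have e1 : d x = b x ^ 2 := by
      simp only [hd]
      rw [real_inner_self_eq_norm_sq, hx]
      ring
    simp only [hr, hlam]
    rw [e1, Real.sqrt_sq hbp.le]
    simp

/-- Brouwer for continuous maps of the closed unit ball (map defined on the whole space). -/
theorem brouwer_ball (f : EuclideanSpace ℝ (Fin n) → EuclideanSpace ℝ (Fin n))
    (hf : Continuous f) (hf1 : ∀ x, ‖f x‖ ≤ 1) : ∃ x, ‖x‖ ≤ 1 ∧ f x = x := by
  -- approximate fixed points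
  have happ : ∀ ε : ℝ, 0 < ε → ∃ x, ‖x‖ ≤ 1 ∧ ‖f x - x‖ ≤ 2 * ε := by
    intro ε hε
    obtain ⟨g, hg⟩ := exists_contMDiffMap_forall_mem_convex_of_local_const
      (n := 1) 𝓘(ℝ, EuclideanSpace ℝ (Fin n)) (F := EuclideanSpace ℝ (Fin n))
      (t := fun x => ball (f x) ε) (fun x => convex_ball _ _) (fun x => ⟨f x, by
        have h := hf.continuousAt (x := x)
        have h2 := Metric.continuousAt_iff.1 h ε hε
        obtain ⟨δ, hδ, h3⟩ := h2
        filter_upwards [ball_mem_nhds x hδ] with y hy
        rw [mem_ball, dist_comm]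
        exact h3 hy⟩)
    have hgs : ContDiff ℝ 1 g := g.contMDiff.contDiff
    have hgn : ∀ x, ‖g x - f x‖ < ε := fun x => by
      have := hg x
      rwa [mem_ball, dist_eq_norm] at this
    have hg1 : ∀ x, ‖g x‖ ≤ 1 + ε := fun x => by
      have := norm_add_le (g x - f x) (f x)
      rw [sub_add_cancel] at this
      linarith [hgn x, hf1 x]
    have h1e : 0 < 1 + ε := by linarith
    obtain ⟨x, hx, hgx⟩ := brouwer_smooth (fun x => (1 + ε)⁻¹ • g x) (hgs.const_smul _)
      (fun x _ => by
        rw [norm_smul, Real.norm_of_nonneg (by positivity), inv_mul_le_iff₀ h1e]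
        linarith [hg1 x])
    refine ⟨x, hx, ?_⟩
    have hgx2 : g x = (1 + ε) • x := by
      have := congrArg (fun z => (1 + ε) • z) hgx
      simp only [smul_smul, mul_inv_cancel₀ h1e.ne', one_smul] at this
      exact this
    have e1 : f x - x = -(g x - f x) + ε • x := by
      have : ε • x = g x - x := by rw [hgx2, add_smul, one_smul]; abel
      rw [this]; abel
    rw [e1]
    refine (norm_add_le _ _).trans ?_
    rw [norm_neg, norm_smul, Real.norm_of_nonneg hε.le]
    nlinarith [hgn x]
  have hc : IsCompact (closedBall (0 : EuclideanSpace ℝ (Fin n)) 1) := isCompact_closedBall _ _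
  obtain ⟨x, hx, hmin⟩ := hc.exists_isMinOn ⟨0, by simp⟩
    ((hf.sub continuous_id).norm.continuousOn)
  rw [mem_closedBall_zero_iff] at hx
  refine ⟨x, hx, ?_⟩
  by_contra hne
  have hpos : 0 < ‖f x - x‖ := norm_pos_iff.2 (sub_ne_zero.2 hne)
  obtain ⟨y, hy, hy2⟩ := happ (‖f x - x‖ / 4) (by positivity)
  have h3 : ‖f x - x‖ ≤ ‖f y - y‖ := hmin (by rwa [mem_closedBall_zero_iff])
  linarith

/-- Brouwer for compact convex subsets of Euclidean space. -/
theorem brouwer_euclidean (D : Set (EuclideanSpace ℝ (Fin n))) (hc : IsCompact D)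
    (hD : Convex ℝ D) (hne : D.Nonempty)
    (f : EuclideanSpace ℝ (Fin n) → EuclideanSpace ℝ (Fin n)) (hf : ContinuousOn f D)
    (hm : MapsTo f D D) : ∃ x ∈ D, f x = x := by
  obtain ⟨p, hp1, hp2, hp3, hp4⟩ := exists_proj hne hc.isComplete hD
  obtain ⟨R, hR⟩ := hc.isBounded.exists_norm_le
  set S := max R 1 with hS
  have hS0 : 0 < S := lt_of_lt_of_le one_pos (le_max_right _ _)
  have hpc : Continuous p := by
    have : LipschitzWith 1 p := LipschitzWith.of_dist_le_mul fun x y => by
      rw [dist_eq_norm, dist_eq_norm, NNReal.coe_one, one_mul]; exact hp4 x y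
    exact this.continuous
  have hfp : Continuous fun x => f (p x) := by
    rw [← continuousOn_univ]
    exact hf.comp hpc.continuousOn (fun x _ => hp1 x)
  obtain ⟨x, hx, hfx⟩ := brouwer_ball (fun x => S⁻¹ • f (p (S • x)))
    ((hfp.comp (continuous_const_smul S)).const_smul S⁻¹)
    (fun x => by
      rw [norm_smul, Real.norm_of_nonneg (by positivity), inv_mul_le_iff₀ hS0, mul_one]
      exact (hR _ (hm (hp1 _))).trans (le_max_left _ _))
  have h2 : f (p (S • x)) = S • x := by
    have := congrArg (fun z => S • z) hfx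
    simp only [smul_smul, mul_inv_cancel₀ hS0.ne', one_smul] at this
    exact this
  have h3 : S • x ∈ D := h2 ▸ hm (hp1 _)
  refine ⟨S • x, h3, ?_⟩
  rw [hp3 _ h3] at h2
  exact h2

/-- **Brouwer's fixed point theorem**: a continuous self-map of a nonempty compact convex
subset of a finite-dimensional real normed space has a fixed point. -/
theorem brouwer_fixed_point {E : Type*} [NormedAddCommGroup E] [NormedSpace ℝ E]
    [FiniteDimensional ℝ E] (D : Set E) (hc : IsCompact D) (hD : Convex ℝ D)
    (hne : D.Nonempty) (f : E → E) (hf : ContinuousOn f D) (hm : MapsTo f D D) :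
    ∃ x ∈ D, f x = x := by
  set e : E ≃L[ℝ] EuclideanSpace ℝ (Fin (Module.finrank ℝ E)) := toEuclidean with he
  obtain ⟨y, hy, hfy⟩ := brouwer_euclidean (e '' D) (hc.image e.continuous)
    (hD.linear_image e.toLinearEquiv.toLinearMap) (hne.image _)
    (fun y => e (f (e.symm y)))
    (by
      refine e.continuous.comp_continuousOn (hf.comp e.symm.continuous.continuousOn ?_)
      rintro _ ⟨x, hx, rfl⟩
      simpa using hx)
    (by
      rintro _ ⟨x, hx, rfl⟩
      exact ⟨f x, hm hx, by simp⟩)
  obtain ⟨x, hx, rfl⟩ := hy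
  refine ⟨x, hx, ?_⟩
  simpa using hfy

end BrouwerFP
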